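import Vale.Agent.P037.Assemble
import Vale.Agent.P037.Far
import Vale.Agent.P037.Count
import Vale.Agent.P037.Final

namespace Vale.Agent.Results.P037.Disproof

open Vale.Agent.P037

theorem result :
    ¬ PolyRemoval ∧
    (∀ T M : ℕ, 1 ≤ T → 1 ≤ M →
      ∃ A : Fin ((6 * T + 12) * (2 ^ T * M)) → Fin ((6 * T + 12) * (2 ^ T * M)) → Bool,
        1 / (3 * (6 * (T : ℝ) + 12) ^ 2) ≤ distFree H5 A ∧
        (numCopies H5 A : ℝ) ≤
          25 * (1 / 2 : ℝ) ^ T * (((6 * T + 12) * (2 ^ T * M) : ℕ) : ℝ) ^ 10) := by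
  refine ⟨?_, ?_⟩
  · exact final card_Idx (fun T xr lr xc lc hr hc h => no_copy xr lr xc lc hr hc h)
      (fun T M _ _ B hB => far B hB) (fun T M => count T M)
  · intro T M _ hM
    exact main_T hM (card_Idx T M) (fun xr lr xc lc hr hc h => no_copy xr lr xc lc hr hc h)
      (fun B hB => far B hB) (count T M)

end Vale.Agent.Results.P037.Disproof
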