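import Vale.Agent.P037h10.Final

namespace Vale.Agent.Results.P037.OrderedRemoval

open Vale.Agent.P037h10

theorem result :
    (¬ ∀ (k : ℕ) (H : Matrix (Fin k) (Fin k) Bool), PolynomialRemoval H) ∧
    ¬ PolynomialRemoval pattern ∧
    ∀ m N : ℕ, 1 ≤ m → ∃ n : ℕ, N ≤ n ∧ 1 ≤ n ∧ ∃ A : Matrix (Fin n) (Fin n) Bool,
      1 / (100000 * ((m : ℝ) + 1) ^ 10) ≤ distToFree pattern A ∧
      (numCopies pattern A : ℝ) ≤ (n : ℝ) ^ 10 / (4 * (m : ℝ) + 2) ^ m :=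
  ⟨fun h => not_polynomialRemoval (h 5 pattern), not_polynomialRemoval, quantitative⟩

end Vale.Agent.Results.P037.OrderedRemoval
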